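import Vale.Agent.P139.Q836.Fin2
import Vale.Agent.P139.R2.H182.FinB
import Vale.Agent.P139.R2.H556.Defs2

/-! P139, stage 2, row S4 (helper923): the probability part of `FinalQ`. -/

set_option autoImplicit false

open Filter Topology MeasureTheory Set
open scoped ENNReal NNReal

namespace Vale.Agent.P139.BN

open Vale.Agent.P139.A Vale.Agent.P139.A.WA

/-- The deterministic part of `FinalQ`: one sample, all hypotheses explicit. -/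
def DetQ (d : ℕ) : Prop :=
  ∀ (m k : ℕ), 1 ≤ m → ∃ α₁ : ℝ, ∀ α ≥ α₁, ∀ γ : Lat d → ℂ,
    ((2 : ℝ) ^ NN α)⁻¹ ≤ ‖γ 0‖ → ‖γ 0‖ ≤ (2 : ℝ) ^ NN α → NonRes (NN α) (m * ‖γ 0‖ ^ (2 * m)) →
    (Summable fun n => ‖γ n‖ * (Vale.Agent.P139.A.W (2 * d) n)⁻¹) →
    ∑' n, ‖γ n‖ * (Vale.Agent.P139.A.W (2 * d) n)⁻¹ ≤ (2 : ℝ) ^ NN α →
    ENNReal.ofReal (Real.exp (α ^ (11 / 10 : ℝ))) ≤
      lifespan d (2 * m + 1) k (fun n => γ n * ((Real.sqrt (1 + sqNorm n) ^ (-α) : ℝ) : ℂ))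

/-- **Row S4, probability part.** -/
theorem finalQ_of {d : ℕ} (hNR : NRTail) (hdet : DetQ d) : FinalQ d := by
  intro m k hm
  obtain ⟨N₀, hN₀⟩ := hNR m hm
  obtain ⟨α₁, hα₁⟩ := hdet m k hm
  obtain ⟨C, hC, HS⟩ := Vale.Agent.P139.Q836.sum_tail d
  obtain ⟨b, hb⟩ := exists_le_two_pow (C + 1)
  obtain ⟨α₂, hα₂⟩ := ((NN_tendsto.eventually_ge_atTop (max N₀ (2 * b))).and
    (NN_lower.and (eventually_ge_atTop (max α₁ 1)))).exists_forall_of_atTop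
  refine ⟨α₂, ?_⟩
  intro Ω _ P _ g hm' hg α hα
  obtain ⟨hN, hlow, hα1⟩ := hα₂ α hα
  have hNN₀ : N₀ ≤ NN α := (le_max_left _ _).trans hN
  have hNb : 2 * b ≤ NN α := (le_max_right _ _).trans hN
  have hαα₁ : α₁ ≤ α := (le_max_left _ _).trans hα1
  have hα1' : 1 ≤ α := (le_max_right _ _).trans hα1
  have hdet' := hα₁ α hαα₁
  have hbad := hN₀ (NN α) hNN₀
  generalize NN α = N at *
  have hsub : {ω | lifespan d (2 * m + 1) k (datum g α ω) <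
      ENNReal.ofReal (Real.exp (α ^ (11 / 10 : ℝ)))} ⊆
      {ω | ¬ ((Summable fun n => ‖g n ω‖ * (Vale.Agent.P139.A.W (2 * d) n)⁻¹) ∧
        ∑' n, ‖g n ω‖ * (Vale.Agent.P139.A.W (2 * d) n)⁻¹ ≤ (2 : ℝ) ^ N)} ∪
      (g 0) ⁻¹' {z : ℂ | ¬ (((2 : ℝ) ^ N)⁻¹ ≤ ‖z‖ ∧ ‖z‖ ≤ (2 : ℝ) ^ N ∧
        NonRes N (m * ‖z‖ ^ (2 * m)))} := by
    intro ω hω
    by_contra hcon
    rw [mem_union, not_or] at hcon
    obtain ⟨c1, c2⟩ := hcon
    rw [mem_setOf_eq, not_not] at c1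
    rw [mem_preimage, mem_setOf_eq, not_not] at c2
    exact absurd (hdet' (fun n => g n ω) c2.1 c2.2.1 c2.2.2 c1.1 c1.2) (not_le.2 hω)
  have h1 := HS P g hm' hg ((2 : ℝ) ^ N) (by positivity)
  have h2 : P ((g 0) ⁻¹' {z : ℂ | ¬ (((2 : ℝ) ^ N)⁻¹ ≤ ‖z‖ ∧ ‖z‖ ≤ (2 : ℝ) ^ N ∧
        NonRes N (m * ‖z‖ ^ (2 * m)))}) ≤ ENNReal.ofReal ((2 : ℝ) ^ N)⁻¹ := by
    refine (Measure.le_map_apply (hm' 0).aemeasurable _).trans ?_
    rw [hg 0]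
    exact hbad
  refine (measure_mono hsub).trans ((measure_union_le _ _).trans ((add_le_add h1 h2).trans ?_))
  have hC0 : 0 ≤ C / (2 : ℝ) ^ N := by positivity
  rw [← ENNReal.ofReal_add hC0 (by positivity)]
  refine ENNReal.ofReal_le_ofReal ?_
  have hx : 0 ≤ α ^ (1 / 10 : ℝ) := Real.rpow_nonneg (by linarith) _
  rw [Real.exp_neg]
  rw [← one_div, ← one_div, ← add_div]
  rw [div_le_div_iff₀ (by positivity) (Real.exp_pos _), one_mul]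
  have e1 : Real.exp (α ^ (1 / 10 : ℝ)) ≤ (2 : ℝ) ^ ((N : ℝ) / 2) := by
    refine (exp_le_two_rpow hx).trans ?_
    apply Real.rpow_le_rpow_of_exponent_le (by norm_num)
    linarith [Nat.cast_nonneg (α := ℝ) N]
  have e2 : (C + 1 : ℝ) ≤ (2 : ℝ) ^ ((N : ℝ) / 2) := by
    refine hb.trans ?_
    rw [← Real.rpow_natCast]
    apply Real.rpow_le_rpow_of_exponent_le (by norm_num)
    have : (2 : ℝ) * b ≤ N := by exact_mod_cast hNb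
    linarith
  calc (C + 1) * Real.exp (α ^ (1 / 10 : ℝ)) ≤ (2 : ℝ) ^ ((N : ℝ) / 2) * (2 : ℝ) ^ ((N : ℝ) / 2) :=
        mul_le_mul e2 e1 (Real.exp_pos _).le (by positivity)
    _ = (2 : ℝ) ^ N := by
        rw [← Real.rpow_add (by norm_num), add_halves, Real.rpow_natCast]

end Vale.Agent.P139.BN
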