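import Mathlib.Analysis.SpecialFunctions.Pow.Real
import Mathlib.Algebra.BigOperators.Fin
import Mathlib.Algebra.Order.BigOperators.Ring.Finset

/-! P139, rows R5, R6 (helper923): convolution inequalities over momentum conserving indices. -/

set_option autoImplicit false

namespace Vale.Agent.P139.R2.H923

open Finset

variable {ι G : Type*} [Fintype ι] [AddCommGroup G] [DecidableEq G]

/-- `mom` takes every value at most `M` times. -/
def Mult (mom : ι → G) (M : ℕ) : Prop := ∀ g, (univ.filter fun i => mom i = g).card ≤ M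

/-- the sum over the indices of total momentum `g` -/
noncomputable def msum {n : ℕ} (mom : ι → G) (g : G) (F : (Fin n → ι) → ℝ) : ℝ :=
  ∑ I : Fin n → ι, if ∑ m, mom (I m) = g then F I else 0

lemma msum_mono {n : ℕ} (mom : ι → G) (g : G) {F F' : (Fin n → ι) → ℝ} (h : ∀ I, F I ≤ F' I) :
    msum mom g F ≤ msum mom g F' := by
  refine sum_le_sum fun I _ => ?_
  split_ifs
  · exact h I
  · exact le_rfl

lemma msum_nonneg {n : ℕ} (mom : ι → G) (g : G) {F : (Fin n → ι) → ℝ} (h : ∀ I, 0 ≤ F I) :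
    0 ≤ msum mom g F := by
  refine sum_nonneg fun I _ => ?_
  split_ifs
  · exact h I
  · exact le_rfl

/-- one free bounded slot -/
theorem msum_one {n : ℕ} {mom : ι → G} {M : ℕ} (hM : Mult mom M) (g : G) (l : Fin (n + 1))
    (h : Fin (n + 1) → ι → ℝ) (h0 : ∀ m i, 0 ≤ h m i) (h1 : ∀ i, h l i ≤ 1) :
    msum mom g (fun I => ∏ m, h m (I m)) ≤ M * ∏ m : Fin n, ∑ i, h (l.succAbove m) i := by
  have e : msum mom g (fun I => ∏ m, h m (I m)) =
      ∑ J : Fin n → ι, ∑ i : ι, if mom i + ∑ m, mom (J m) = g then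
        h l i * ∏ m, h (l.succAbove m) (J m) else 0 := by
    unfold msum
    rw [← (Fin.insertNthEquiv (fun _ => ι) l).sum_comp, Fintype.sum_prod_type, sum_comm]
    refine sum_congr rfl fun J _ => sum_congr rfl fun i _ => ?_
    refine if_congr ?_ ?_ rfl
    · rw [Fin.sum_univ_succAbove _ l]
      simp [Fin.insertNthEquiv]
    · beta_reduce
      rw [Fin.prod_univ_succAbove _ l]
      simp [Fin.insertNthEquiv]
  rw [e, Finset.prod_univ_sum, Finset.mul_sum, Fintype.piFinset_univ]
  refine sum_le_sum fun J _ => ?_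
  have hp : 0 ≤ ∏ m, h (l.succAbove m) (J m) := prod_nonneg fun m _ => h0 _ _
  calc ∑ i : ι, (if mom i + ∑ m, mom (J m) = g then h l i * ∏ m, h (l.succAbove m) (J m) else 0)
      ≤ ∑ i : ι, (if mom i = g - ∑ m, mom (J m) then ∏ m, h (l.succAbove m) (J m) else 0) := by
        refine sum_le_sum fun i _ => ?_
        by_cases hc : mom i = g - ∑ m, mom (J m)
        · rw [if_pos hc, if_pos (by rw [hc]; abel)]
          exact mul_le_of_le_one_left hp (h1 i)
        · rw [if_neg hc, if_neg]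
          intro h
          exact hc (by rw [← h]; abel)
    _ = ((univ.filter fun i => mom i = g - ∑ m, mom (J m)).card : ℝ) *
          ∏ m, h (l.succAbove m) (J m) := by
        rw [← sum_filter, sum_const, nsmul_eq_mul]
    _ ≤ M * ∏ m, h (l.succAbove m) (J m) :=
        mul_le_mul_of_nonneg_right (by exact_mod_cast hM _) hp

/-- two square summable slots, all other slots summable -/
theorem msum_two {n : ℕ} {mom : ι → G} {M : ℕ} (hM : Mult mom M) (g : G) {a b : Fin n}
    (hab : a ≠ b) (f : Fin n → ι → ℝ) (f0 : ∀ m i, 0 ≤ f m i) :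
    msum mom g (fun I => ∏ m, f m (I m)) ≤
      M * (√(∑ i, f a i ^ 2) * √(∑ i, f b i ^ 2)) *
        ∏ m ∈ (univ.erase a).erase b, ∑ i, f m i := by
  obtain ⟨n, rfl⟩ : ∃ k, n = k + 1 := ⟨n - 1, by have := a.pos; omega⟩
  -- the two bounds with a free slot
  have key : ∀ c d : Fin (n + 1), c ≠ d →
      msum mom g (fun I => f c (I c) ^ 2 * ∏ m ∈ (univ.erase c).erase d, f m (I m)) ≤
        M * ((∑ i, f c i ^ 2) * ∏ m ∈ (univ.erase c).erase d, ∑ i, f m i) := by
    intro c d hcd
    set h : Fin (n + 1) → ι → ℝ := fun m i =>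
      if m = c then f c i ^ 2 else if m = d then 1 else f m i with hh
    have h0 : ∀ m i, 0 ≤ h m i := by
      intro m i
      simp only [hh]
      split_ifs
      · positivity
      · exact zero_le_one
      · exact f0 m i
    have hd : ∀ i, h d i = 1 := fun i => by simp [hh, hcd.symm]
    have hc : ∀ i, h c i = f c i ^ 2 := fun i => by simp [hh]
    have ho : ∀ m ∈ (univ.erase c).erase d, ∀ i, h m i = f m i := by
      intro m hm i
      simp only [mem_erase, mem_univ, and_true] at hm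
      simp [hh, hm.1, hm.2]
    have hprod : ∀ I : Fin (n + 1) → ι, ∏ m, h m (I m) =
        f c (I c) ^ 2 * ∏ m ∈ (univ.erase c).erase d, f m (I m) := by
      intro I
      rw [← mul_prod_erase univ _ (mem_univ c),
        ← mul_prod_erase (univ.erase c) _ (mem_erase.2 ⟨hcd.symm, mem_univ d⟩), hc, hd, one_mul]
      congr 1
      exact prod_congr rfl fun m hm => ho m hm _
    have h2 := msum_one hM g d h h0 (fun i => (hd i).le)
    simp only [hprod] at h2
    refine h2.trans (mul_le_mul_of_nonneg_left (le_of_eq ?_) (Nat.cast_nonneg _))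
    have h3 : ∏ m : Fin n, ∑ i, h (d.succAbove m) i = ∏ m ∈ univ.erase d, ∑ i, h m i := by
      rw [← Finset.compl_singleton, ← Fin.image_succAbove_univ, prod_image]
      exact fun x _ y _ hxy => Fin.succAbove_right_injective hxy
    rw [h3, ← mul_prod_erase (univ.erase d) _ (mem_erase.2 ⟨hcd, mem_univ c⟩)]
    congr 1
    · exact sum_congr rfl fun i _ => hc i
    · rw [erase_right_comm]
      exact prod_congr rfl fun m hm => sum_congr rfl fun i _ => ho m hm i
  -- Cauchy-Schwarz
  set S : Finset (Fin (n + 1) → ι) := univ.filter fun I => ∑ m, mom (I m) = g with hS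
  have hR0 : ∀ I : Fin (n + 1) → ι, 0 ≤ ∏ m ∈ (univ.erase a).erase b, f m (I m) :=
    fun I => prod_nonneg fun m _ => f0 _ _
  have e1 : msum mom g (fun I => ∏ m, f m (I m)) =
      ∑ I ∈ S, (f a (I a) * √(∏ m ∈ (univ.erase a).erase b, f m (I m))) *
        (f b (I b) * √(∏ m ∈ (univ.erase a).erase b, f m (I m))) := by
    unfold msum
    rw [← sum_filter]
    refine sum_congr rfl fun I _ => ?_
    rw [← mul_prod_erase univ _ (mem_univ a),
      ← mul_prod_erase (univ.erase a) _ (mem_erase.2 ⟨hab.symm, mem_univ b⟩)]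
    have := Real.mul_self_sqrt (hR0 I)
    linear_combination (-(f a (I a) * f b (I b))) * this
  have e2 : ∀ c d : Fin (n + 1), (univ.erase c).erase d = (univ.erase a).erase b →
      ∑ I ∈ S, (f c (I c) * √(∏ m ∈ (univ.erase a).erase b, f m (I m))) ^ 2 =
        msum mom g (fun I => f c (I c) ^ 2 * ∏ m ∈ (univ.erase c).erase d, f m (I m)) := by
    intro c d hcd
    unfold msum
    rw [← sum_filter]
    refine sum_congr rfl fun I _ => ?_
    rw [mul_pow, Real.sq_sqrt (hR0 I), hcd]
  have hcs := Finset.sum_mul_sq_le_sq_mul_sq S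
    (fun I => f a (I a) * √(∏ m ∈ (univ.erase a).erase b, f m (I m)))
    (fun I => f b (I b) * √(∏ m ∈ (univ.erase a).erase b, f m (I m)))
  rw [e2 a b rfl, e2 b a (erase_right_comm)] at hcs
  have hka := key a b hab
  have hkb := key b a hab.symm
  rw [erase_right_comm] at hkb
  set P : ℝ := ∏ m ∈ (univ.erase a).erase b, ∑ i, f m i with hP
  have hP0 : 0 ≤ P := prod_nonneg fun m _ => sum_nonneg fun i _ => f0 _ _
  have hA0 : 0 ≤ ∑ i, f a i ^ 2 := sum_nonneg fun i _ => sq_nonneg _
  have hB0 : 0 ≤ ∑ i, f b i ^ 2 := sum_nonneg fun i _ => sq_nonneg _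
  rw [e1]
  refine abs_le_of_sq_le_sq' ?_ (by positivity) |>.2
  refine hcs.trans ?_
  have e3 : (M * (√(∑ i, f a i ^ 2) * √(∑ i, f b i ^ 2)) * P) ^ 2 =
      (M * ((∑ i, f a i ^ 2) * P)) * (M * ((∑ i, f b i ^ 2) * P)) := by
    have h1 := Real.sq_sqrt hA0
    have h2 := Real.sq_sqrt hB0
    calc (M * (√(∑ i, f a i ^ 2) * √(∑ i, f b i ^ 2)) * P) ^ 2
        = (M : ℝ) ^ 2 * (√(∑ i, f a i ^ 2) ^ 2) * (√(∑ i, f b i ^ 2) ^ 2) * P ^ 2 := by ring
      _ = _ := by rw [h1, h2]; ring
  rw [e3]
  refine mul_le_mul hka ?_ ?_ (by positivity)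
  · have : msum mom g (fun I => f b (I b) ^ 2 * ∏ m ∈ (univ.erase b).erase a, f m (I m)) =
      msum mom g (fun I => f b (I b) ^ 2 * ∏ m ∈ (univ.erase a).erase b, f m (I m)) := by
      rw [erase_right_comm]
    rw [this]
    exact hkb
  · exact msum_nonneg _ _ fun I => mul_nonneg (sq_nonneg _) (prod_nonneg fun m _ => f0 _ _)

/-- one more slot in front -/
theorem msum_cons {n : ℕ} (mom : ι → G) (g : G) (a : ι → ℝ) (f : Fin n → ι → ℝ) :
    ∑ i, a i * msum mom (g - mom i) (fun J => ∏ m, f m (J m)) =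
      msum mom g (fun I : Fin (n + 1) → ι => ∏ m, (Fin.cons a f : Fin (n + 1) → ι → ℝ) m (I m)) := by
  unfold msum
  rw [← (Fin.consEquiv (fun _ => ι)).sum_comp, Fintype.sum_prod_type]
  refine sum_congr rfl fun i _ => ?_
  rw [Finset.mul_sum]
  refine sum_congr rfl fun J _ => ?_
  rw [mul_ite, mul_zero]
  refine if_congr ?_ ?_ rfl
  · rw [Fin.sum_univ_succ]
    simp only [Fin.consEquiv_apply, Fin.cons_zero, Fin.cons_succ]
    constructor
    · intro h
      rw [h]
      abel
    · intro h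
      rw [← h]
      abel
  · beta_reduce
    rw [Fin.prod_univ_succ]
    simp only [Fin.consEquiv_apply, Fin.cons_zero, Fin.cons_succ]

/-- the square norm of a convolution: one square summable slot, the other slots summable -/
theorem msum_sq {n : ℕ} {mom : ι → G} {M : ℕ} (hM : Mult mom M) (g : G) (b : Fin n)
    (f : Fin n → ι → ℝ) (f0 : ∀ m i, 0 ≤ f m i) :
    √(∑ i, msum mom (g - mom i) (fun J => ∏ m, f m (J m)) ^ 2) ≤
      M * √(∑ i, f b i ^ 2) * ∏ m ∈ univ.erase b, ∑ i, f m i := by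
  set a : ι → ℝ := fun i => msum mom (g - mom i) (fun J => ∏ m, f m (J m)) with ha
  have a0 : ∀ i, 0 ≤ a i := fun i => msum_nonneg _ _ fun J => prod_nonneg fun m _ => f0 _ _
  set c : Fin (n + 1) → ι → ℝ := Fin.cons a f with hc
  have c0 : ∀ m i, 0 ≤ c m i := by
    intro m i
    refine Fin.cases ?_ (fun m => ?_) m
    · simpa [hc] using a0 i
    · simpa [hc] using f0 m i
  have h1 := msum_two hM g (a := 0) (b := b.succ) (Fin.succ_ne_zero b).symm c c0
  have h2 : ∑ i, a i ^ 2 = msum mom g (fun I : Fin (n + 1) → ι => ∏ m, c m (I m)) := by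
    rw [hc, ← msum_cons]
    exact sum_congr rfl fun i _ => sq _
  have h3 : ∏ m ∈ (univ.erase (0 : Fin (n + 1))).erase b.succ, ∑ i, c m i =
      ∏ m ∈ univ.erase b, ∑ i, f m i := by
    have e : (univ.erase (0 : Fin (n + 1))).erase b.succ =
        (univ.erase b).map (Fin.succEmb n) := by
      ext m
      simp only [mem_erase, mem_univ, and_true, mem_map, Fin.coe_succEmb]
      refine Fin.cases ?_ (fun m => ?_) m
      · simp
      · simp [Fin.succ_inj]
    rw [e, prod_map]
    exact prod_congr rfl fun m _ => by simp [hc]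
  rw [← h2, h3] at h1
  have hc0 : c 0 = a := by simp [hc]
  have hcb : c b.succ = f b := by simp [hc]
  rw [hc0, hcb] at h1
  have hA0 : 0 ≤ ∑ i, a i ^ 2 := sum_nonneg fun i _ => sq_nonneg _
  have hP0 : 0 ≤ ∏ m ∈ univ.erase b, ∑ i, f m i :=
    prod_nonneg fun m _ => sum_nonneg fun i _ => f0 _ _
  rcases (Real.sqrt_nonneg (∑ i, a i ^ 2)).eq_or_lt with h | h
  · rw [← h]
    positivity
  · refine le_of_mul_le_mul_left ?_ h
    calc √(∑ i, a i ^ 2) * √(∑ i, a i ^ 2) = ∑ i, a i ^ 2 := Real.mul_self_sqrt hA0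
      _ ≤ _ := h1
      _ = _ := by ring

end Vale.Agent.P139.R2.H923
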