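import Mathlib.Algebra.Order.Chebyshev
import Vale.Agent.P139.R2.H556.Defs
import Vale.Agent.P139.R2.H923.Young

/-! P139, row R5 (helper923): evaluation bounds. -/

set_option autoImplicit false

namespace Vale.Agent.P139.R2.H923

open MvPolynomial Finset
open Vale.Agent.P139.BN Vale.Agent.P139.A Vale.Agent.P139.A.WA

variable {ι : Type} {d : ℕ}

section poly

/-- a derivation of a product -/
theorem pderiv_prod {σ : Type} {β : Type} [DecidableEq β] (v : σ) (s : Finset β)
    (f : β → MvPolynomial σ ℂ) :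
    pderiv v (∏ i ∈ s, f i) = ∑ i ∈ s, (∏ j ∈ s.erase i, f j) * pderiv v (f i) := by
  induction s using Finset.induction_on with
  | empty => simp
  | insert a s ha ih =>
    rw [prod_insert ha, sum_insert ha, Derivation.leibniz, ih, smul_eq_mul, smul_eq_mul,
      erase_insert ha, add_comm]
    congr 1
    rw [mul_sum]
    refine sum_congr rfl fun i hi => ?_
    have hne : a ≠ i := fun h => ha (h ▸ hi)
    rw [erase_insert_of_ne hne, prod_insert (fun h => ha (mem_of_mem_erase h)), mul_assoc]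

lemma eval_mon {j : ℕ} (y : ι × Bool → ℂ) (I : Fin j → ι × Bool) :
    eval y (mon I) = ∏ l, y (I l) := by
  unfold mon
  rw [map_prod]
  exact prod_congr rfl fun l _ => eval_X _

lemma eval_pderiv_mon [DecidableEq ι] {j : ℕ} (y : ι × Bool → ℂ) (v : ι × Bool)
    (I : Fin j → ι × Bool) :
    eval y (pderiv v (mon I)) =
      ∑ l, if I l = v then ∏ m ∈ univ.erase l, y (I m) else 0 := by
  unfold mon
  rw [pderiv_prod, map_sum]
  refine sum_congr rfl fun l _ => ?_
  rw [map_mul, map_prod, pderiv_X]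
  split_ifs with h
  · subst h
    simp
  · rw [Pi.single_eq_of_ne (fun h' => h h'), map_zero, mul_zero]

/-- the directional derivative of a monomial -/
lemma dir_mon [Fintype ι] [DecidableEq ι] {j : ℕ} (y r : ι × Bool → ℂ) (I : Fin j → ι × Bool) :
    ∑ v, eval y (pderiv v (mon I)) * r v =
      ∑ l, ∏ m, (Function.update (fun _ => y) l r : Fin j → ι × Bool → ℂ) m (I m) := by
  have h1 : ∀ v, eval y (pderiv v (mon I)) * r v =
      ∑ l, if I l = v then (∏ m ∈ univ.erase l, y (I m)) * r v else 0 := by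
    intro v
    rw [eval_pderiv_mon, sum_mul]
    exact sum_congr rfl fun l _ => by rw [ite_mul, zero_mul]
  simp only [h1]
  rw [sum_comm]
  refine sum_congr rfl fun l _ => ?_
  rw [sum_ite_eq univ (I l) (fun v => (∏ m ∈ univ.erase l, y (I m)) * r v), if_pos (mem_univ _),
    ← mul_prod_erase univ _ (mem_univ l), Function.update_self, mul_comm]
  congr 1
  refine prod_congr rfl fun m hm => ?_
  rw [Function.update_of_ne (ne_of_mem_erase hm)]

end poly

variable [Fintype ι]

/-- the momenta take every value at most twice -/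
lemma mult_sm [DecidableEq ι] {mo : ι → Lat d} (hmo : Function.Injective mo) :
    Mult (sm mo) 2 := by
  intro g
  have h : (univ.filter fun v : ι × Bool => sm mo v = g).card ≤
      (univ : Finset Bool).card := by
    refine card_le_card_of_injOn (fun v => v.2) (fun v _ => mem_univ _) ?_
    rintro ⟨n, s⟩ hv ⟨n', s'⟩ hv' hss
    simp only [coe_filter, mem_univ, true_and, Set.mem_ofPred_eq] at hv hv'
    simp only at hss
    subst hss
    have : mo n = mo n' := by
      cases s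
      · simp only [sm, Bool.false_eq_true, if_false] at hv hv'
        exact neg_injective (hv.trans hv'.symm)
      · simp only [sm, if_true] at hv hv'
        exact hv.trans hv'.symm
    rw [hmo this]
  simpa using h

lemma nw_nonneg (w : ι → ℝ) (y : ι × Bool → ℂ) : 0 ≤ nw w y := Real.sqrt_nonneg _

lemma nw_sq (w : ι → ℝ) (y : ι × Bool → ℂ) :
    nw w y ^ 2 = ∑ v : ι × Bool, (w v.1 * ‖y v‖) ^ 2 :=
  Real.sq_sqrt (sum_nonneg fun _ _ => sq_nonneg _)

/-- the summable norm of `W y` -/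
lemma l1_le {W pw : ι → ℝ} (hW : ∀ n, 1 ≤ W n) (hpw : ∀ n, 1 ≤ pw n) {S : ℝ} (hS : 0 ≤ S)
    (hs : ∑ n, (pw n ^ 2)⁻¹ ≤ S ^ 2) (y : ι × Bool → ℂ) :
    ∑ v : ι × Bool, W v.1 * ‖y v‖ ≤ 2 * S * nw (fun n => W n * pw n) y := by
  have h1 := Finset.sum_mul_sq_le_sq_mul_sq univ (fun v : ι × Bool => (pw v.1)⁻¹)
    (fun v : ι × Bool => W v.1 * pw v.1 * ‖y v‖)
  have h2 : ∑ v : ι × Bool, (pw v.1)⁻¹ * (W v.1 * pw v.1 * ‖y v‖) =
      ∑ v : ι × Bool, W v.1 * ‖y v‖ := by
    refine sum_congr rfl fun v _ => ?_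
    have : pw v.1 ≠ 0 := (zero_lt_one.trans_le (hpw v.1)).ne'
    field_simp
  have h3 : ∑ v : ι × Bool, ((pw v.1)⁻¹) ^ 2 ≤ 2 * S ^ 2 := by
    rw [Fintype.sum_prod_type]
    simp only [Fintype.sum_bool, inv_pow]
    rw [sum_add_distrib]
    linarith
  rw [h2] at h1
  have h4 := nw_sq (fun n => W n * pw n) y
  have h5 := nw_nonneg (fun n => W n * pw n) y
  have h6 : 0 ≤ ∑ v : ι × Bool, W v.1 * ‖y v‖ :=
    sum_nonneg fun v _ => mul_nonneg (zero_le_one.trans (hW v.1)) (norm_nonneg _)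
  refine abs_le_of_sq_le_sq' ?_ (by positivity) |>.2
  calc (∑ v : ι × Bool, W v.1 * ‖y v‖) ^ 2
      ≤ (∑ v : ι × Bool, ((pw v.1)⁻¹) ^ 2) *
          ∑ v : ι × Bool, (W v.1 * pw v.1 * ‖y v‖) ^ 2 := h1
    _ ≤ (2 * S ^ 2) * nw (fun n => W n * pw n) y ^ 2 := by
        rw [h4]
        exact mul_le_mul_of_nonneg_right h3 (sum_nonneg fun _ _ => sq_nonneg _)
    _ ≤ (2 * S * nw (fun n => W n * pw n) y) ^ 2 := by
        have : 0 ≤ S ^ 2 * nw (fun n => W n * pw n) y ^ 2 := by positivity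
        nlinarith

/-- one pair of square summable slots -/
lemma pair_le [DecidableEq ι] {mo : ι → Lat d} (hmo : Function.Injective mo) {W pw : ι → ℝ}
    (hW : ∀ n, 1 ≤ W n) (hpw : ∀ n, 1 ≤ pw n) {S : ℝ} (hS : 1 ≤ S)
    (hs : ∑ n, (pw n ^ 2)⁻¹ ≤ S ^ 2) {j : ℕ} (Y : Fin j → ι × Bool → ℂ) (g : Lat d)
    {l l' : Fin j} (hl : l ≠ l') :
    msum (sm mo) g (fun I => (∏ m, W (I m).1 * ‖Y m (I m)‖) * (pw (I l).1 * pw (I l').1)) ≤
      2 * (2 * S) ^ (j - 2) * ∏ m, nw (fun n => W n * pw n) (Y m) := by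
  have hW0 : ∀ n, 0 ≤ W n := fun n => zero_le_one.trans (hW n)
  have hp0 : ∀ n, 0 ≤ pw n := fun n => zero_le_one.trans (hpw n)
  set f : Fin j → ι × Bool → ℝ := fun m v =>
    W v.1 * ‖Y m v‖ * (if m = l ∨ m = l' then pw v.1 else 1) with hf
  have f0 : ∀ m v, 0 ≤ f m v := by
    intro m v
    simp only [hf]
    refine mul_nonneg (mul_nonneg (hW0 _) (norm_nonneg _)) ?_
    split_ifs
    · exact hp0 _
    · exact zero_le_one
  have e1 : ∀ I : Fin j → ι × Bool,
      (∏ m, W (I m).1 * ‖Y m (I m)‖) * (pw (I l).1 * pw (I l').1) = ∏ m, f m (I m) := by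
    intro I
    have h1 : ∏ x, (if x = l ∨ x = l' then pw (I x).1 else 1) = pw (I l).1 * pw (I l').1 := by
      rw [← mul_prod_erase univ _ (mem_univ l),
        ← mul_prod_erase (univ.erase l) _ (mem_erase.2 ⟨hl.symm, mem_univ l'⟩)]
      rw [if_pos (Or.inl rfl), if_pos (Or.inr rfl), prod_eq_one, mul_one]
      intro m hm
      simp only [mem_erase, mem_univ, and_true] at hm
      rw [if_neg (by tauto)]
    rw [← h1, ← prod_mul_distrib]
  simp only [e1]
  refine (msum_two (mult_sm hmo) g hl f f0).trans ?_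
  have ha : ∀ c : Fin j, (c = l ∨ c = l') → √(∑ i, f c i ^ 2) = nw (fun n => W n * pw n) (Y c) := by
    intro c hc
    unfold nw
    congr 1
    refine sum_congr rfl fun v _ => ?_
    simp only [hf, if_pos hc]
    ring
  have hb : ∀ m ∈ (univ.erase l).erase l', ∑ i, f m i ≤
      2 * S * nw (fun n => W n * pw n) (Y m) := by
    intro m hm
    simp only [mem_erase, mem_univ, and_true] at hm
    have : ∀ i, f m i = W i.1 * ‖Y m i‖ := by
      intro i
      simp only [hf]
      rw [if_neg (by tauto), mul_one]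
    simp only [this]
    exact l1_le hW hpw (zero_le_one.trans hS) hs _
  have hc : ((univ.erase l).erase l').card = j - 2 := by
    rw [card_erase_of_mem (mem_erase.2 ⟨hl.symm, mem_univ l'⟩), card_erase_of_mem (mem_univ l),
      card_univ, Fintype.card_fin]
    rfl
  rw [ha l (Or.inl rfl), ha l' (Or.inr rfl)]
  have hN : ∀ m, 0 ≤ nw (fun n => W n * pw n) (Y m) := fun m => nw_nonneg _ _
  calc ((2 : ℕ) : ℝ) * (nw (fun n => W n * pw n) (Y l) * nw (fun n => W n * pw n) (Y l')) *
        ∏ m ∈ (univ.erase l).erase l', ∑ i, f m i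
      ≤ 2 * (nw (fun n => W n * pw n) (Y l) * nw (fun n => W n * pw n) (Y l')) *
        ∏ m ∈ (univ.erase l).erase l', (2 * S * nw (fun n => W n * pw n) (Y m)) := by
        rw [Nat.cast_ofNat]
        refine mul_le_mul_of_nonneg_left (prod_le_prod (fun m _ => sum_nonneg fun i _ => f0 _ _)
          hb) ?_
        exact mul_nonneg zero_le_two (mul_nonneg (hN _) (hN _))
    _ = 2 * (2 * S) ^ (j - 2) * ∏ m, nw (fun n => W n * pw n) (Y m) := by
        rw [prod_mul_distrib, prod_const, hc, ← mul_prod_erase univ _ (mem_univ l),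
          ← mul_prod_erase (univ.erase l) _ (mem_erase.2 ⟨hl.symm, mem_univ l'⟩)]
        ring

/-- the multilinear bound -/
theorem multi_le [DecidableEq ι] {mo : ι → Lat d} (hmo : Function.Injective mo) {W pw : ι → ℝ}
    (hW : ∀ n, 1 ≤ W n) (hpw : ∀ n, 1 ≤ pw n) {S : ℝ} (hS : 1 ≤ S)
    (hs : ∑ n, (pw n ^ 2)⁻¹ ≤ S ^ 2) {j : ℕ} (Y : Fin j → ι × Bool → ℂ) (g : Lat d) :
    msum (sm mo) g (fun I => DW W pw j I * ∏ m, ‖Y m (I m)‖) ≤
      (j : ℝ) ^ 2 * (2 * (2 * S) ^ (j - 2)) * ∏ m, nw (fun n => W n * pw n) (Y m) := by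
  have e1 : msum (sm mo) g (fun I => DW W pw j I * ∏ m, ‖Y m (I m)‖) =
      ∑ l : Fin j, ∑ l' ∈ univ.erase l,
        msum (sm mo) g (fun I => (∏ m, W (I m).1 * ‖Y m (I m)‖) *
          (pw (I l).1 * pw (I l').1)) := by
    unfold msum
    simp_rw [sum_comm (s := univ.erase _) (t := (univ : Finset (Fin j → ι × Bool)))]
    rw [sum_comm]
    refine sum_congr rfl fun I _ => ?_
    by_cases h : ∑ m, sm mo (I m) = g
    · simp only [if_pos h]
      unfold DW
      rw [prod_mul_distrib, mul_assoc, mul_comm (∑ l : Fin j, _), ← mul_assoc, mul_sum]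
      refine sum_congr rfl fun l _ => ?_
      rw [mul_sum]
    · simp only [if_neg h, sum_const_zero]
  rw [e1]
  set X : ℝ := 2 * (2 * S) ^ (j - 2) * ∏ m, nw (fun n => W n * pw n) (Y m) with hX
  have hX0 : 0 ≤ X := by
    have : 0 ≤ ∏ m, nw (fun n => W n * pw n) (Y m) := prod_nonneg fun m _ => nw_nonneg _ _
    positivity
  calc ∑ l : Fin j, ∑ l' ∈ univ.erase l, msum (sm mo) g (fun I =>
        (∏ m, W (I m).1 * ‖Y m (I m)‖) * (pw (I l).1 * pw (I l').1))
      ≤ ∑ l : Fin j, ∑ l' ∈ univ.erase l, X := by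
        refine sum_le_sum fun l _ => sum_le_sum fun l' hl' => ?_
        exact pair_le hmo hW hpw hS hs Y g (ne_of_mem_erase hl').symm
    _ ≤ ∑ l : Fin j, (j : ℝ) * X := by
        refine sum_le_sum fun l _ => ?_
        rw [sum_const, nsmul_eq_mul]
        refine mul_le_mul_of_nonneg_right ?_ hX0
        have : (univ.erase l).card ≤ j := by
          refine (card_le_card (erase_subset _ _)).trans ?_
          rw [card_univ, Fintype.card_fin]
        exact_mod_cast this
    _ = (j : ℝ) ^ 2 * (2 * (2 * S) ^ (j - 2)) * ∏ m, nw (fun n => W n * pw n) (Y m) := by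
        rw [sum_const, card_univ, Fintype.card_fin, nsmul_eq_mul, hX]
        ring

/-- the sum over a class against the momentum sum -/
lemma cls_sum_le {mo : ι → Lat d} {D : WS ι} {j : ℕ} {F : ℝ}
    {a : (Fin j → ι × Bool) → ℂ} (ha : ∀ I, ‖a I‖ ≤ F * D j I)
    (hm : ∀ I, mom mo I ≠ 0 → a I = 0) (G : (Fin j → ι × Bool) → ℂ) :
    ‖∑ I, a I * G I‖ ≤ F * msum (sm mo) 0 (fun I => D j I * ‖G I‖) := by
  refine (norm_sum_le _ _).trans ?_
  unfold msum
  rw [mul_sum]
  refine sum_le_sum fun I _ => ?_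
  rw [norm_mul]
  split_ifs with h
  · rw [← mul_assoc]
    exact mul_le_mul_of_nonneg_right (ha I) (norm_nonneg _)
  · rw [hm I h, norm_zero, zero_mul, mul_zero]

lemma const_le {j : ℕ} {S : ℝ} (hj : 2 ≤ j) (hS : 1 ≤ S) :
    (j : ℝ) ^ 2 * (2 * (2 * S) ^ (j - 2)) ≤ (4 * j * S) ^ j := by
  have hj0 : (2 : ℝ) ≤ j := by exact_mod_cast hj
  have h1 : (4 * j * S : ℝ) ^ j = (4 * j * S) ^ 2 * (4 * j * S) ^ (j - 2) := by
    rw [← pow_add]
    congr 1
    omega
  have h2 : (2 * S) ^ (j - 2) ≤ (4 * j * S : ℝ) ^ (j - 2) := by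
    refine pow_le_pow_left₀ (by positivity) ?_ _
    nlinarith
  have h3 : (j : ℝ) ^ 2 * 2 ≤ (4 * j * S) ^ 2 := by
    have : (1 : ℝ) ≤ S ^ 2 := one_le_pow₀ hS
    nlinarith [sq_nonneg (j : ℝ)]
  rw [h1]
  calc (j : ℝ) ^ 2 * (2 * (2 * S) ^ (j - 2)) = (j : ℝ) ^ 2 * 2 * (2 * S) ^ (j - 2) := by ring
    _ ≤ (4 * j * S) ^ 2 * (4 * j * S : ℝ) ^ (j - 2) :=
        mul_le_mul h3 h2 (by positivity) (by positivity)

/-- **Row R5.** -/
theorem evThm (d : ℕ) : EvThm d := by
  intro j S hj hS ι _ _ mo W pw hmo hW hpw hs F P hF hP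
  obtain ⟨a, ha, hm, rfl⟩ := hP
  have hS0 : 0 ≤ S := zero_le_one.trans hS
  refine ⟨fun y => ?_, fun y r => ?_⟩
  · have e : eval y (∑ I, C (a I) * mon I) = ∑ I, a I * ∏ l, y (I l) := by
      rw [map_sum]
      refine sum_congr rfl fun I _ => ?_
      rw [map_mul, eval_C, eval_mon]
    rw [e]
    refine (cls_sum_le ha hm _).trans ?_
    have h1 := multi_le hmo hW hpw hS hs (fun _ : Fin j => y) 0
    simp only [prod_const, card_univ, Fintype.card_fin] at h1
    simp only [norm_prod]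
    calc F * msum (sm mo) 0 (fun I => DW W pw j I * ∏ l, ‖y (I l)‖)
        ≤ F * ((j : ℝ) ^ 2 * (2 * (2 * S) ^ (j - 2)) * nw (fun n => W n * pw n) y ^ j) :=
          mul_le_mul_of_nonneg_left h1 hF
      _ ≤ F * ((4 * j * S) ^ j * nw (fun n => W n * pw n) y ^ j) := by
          refine mul_le_mul_of_nonneg_left ?_ hF
          exact mul_le_mul_of_nonneg_right (const_le hj hS) (pow_nonneg (nw_nonneg _ _) _)
      _ = _ := by ring
  · have e : ∑ v, eval y (pderiv v (∑ I, C (a I) * mon I)) * r v =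
        ∑ l : Fin j, ∑ I, a I *
          ∏ m, (Function.update (fun _ => y) l r : Fin j → ι × Bool → ℂ) m (I m) := by
      have h1 : ∀ v, eval y (pderiv v (∑ I, C (a I) * mon I)) * r v =
          ∑ I : Fin j → ι × Bool, a I * (eval y (pderiv v (mon I)) * r v) := by
        intro v
        rw [map_sum, map_sum, sum_mul]
        refine sum_congr rfl fun I _ => ?_
        rw [pderiv_C_mul, map_mul, eval_C, mul_assoc]
      simp only [h1]
      rw [sum_comm]
      simp only [← mul_sum, dir_mon]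
      rw [sum_comm]
      simp only [mul_sum]
    rw [e]
    have h2 : ∀ l : Fin j, ‖∑ I, a I *
          ∏ m, (Function.update (fun _ => y) l r : Fin j → ι × Bool → ℂ) m (I m)‖ ≤
        F * ((4 * j * S) ^ j * (nw (fun n => W n * pw n) y ^ (j - 1) *
          nw (fun n => W n * pw n) r)) := by
      intro l
      refine (cls_sum_le ha hm _).trans ?_
      have h1 := multi_le hmo hW hpw hS hs
        (Function.update (fun _ => y) l r : Fin j → ι × Bool → ℂ) 0
      have h3 : ∏ m, nw (fun n => W n * pw n)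
          ((Function.update (fun _ => y) l r : Fin j → ι × Bool → ℂ) m) =
          nw (fun n => W n * pw n) y ^ (j - 1) * nw (fun n => W n * pw n) r := by
        rw [← mul_prod_erase univ _ (mem_univ l), Function.update_self, mul_comm]
        congr 1
        rw [prod_congr rfl (g := fun _ => nw (fun n => W n * pw n) y) (fun m hm => by
          rw [Function.update_of_ne (ne_of_mem_erase hm)]), prod_const,
          card_erase_of_mem (mem_univ l), card_univ, Fintype.card_fin]
      rw [h3] at h1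
      simp only [norm_prod]
      refine mul_le_mul_of_nonneg_left (h1.trans ?_) hF
      exact mul_le_mul_of_nonneg_right (const_le hj hS)
        (mul_nonneg (pow_nonneg (nw_nonneg _ _) _) (nw_nonneg _ _))
    have hX0 : 0 ≤ nw (fun n => W n * pw n) y ^ (j - 1) * nw (fun n => W n * pw n) r :=
      mul_nonneg (pow_nonneg (nw_nonneg _ _) _) (nw_nonneg _ _)
    have hj0 : (2 : ℝ) ≤ j := by exact_mod_cast hj
    have hQ0 : (0 : ℝ) ≤ (4 * j * S) ^ j := by positivity
    calc ‖∑ l : Fin j, ∑ I, a I *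
          ∏ m, (Function.update (fun _ => y) l r : Fin j → ι × Bool → ℂ) m (I m)‖
        ≤ ∑ l : Fin j, F * ((4 * j * S) ^ j * (nw (fun n => W n * pw n) y ^ (j - 1) *
          nw (fun n => W n * pw n) r)) :=
          (norm_sum_le _ _).trans (sum_le_sum fun l _ => h2 l)
      _ = j * ((4 * j * S) ^ j * (F * (nw (fun n => W n * pw n) y ^ (j - 1) *
          nw (fun n => W n * pw n) r))) := by
          rw [sum_const, card_univ, Fintype.card_fin, nsmul_eq_mul]
          ring
      _ ≤ (4 * j * S) * ((4 * j * S) ^ j * (F * (nw (fun n => W n * pw n) y ^ (j - 1) *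
          nw (fun n => W n * pw n) r))) := by
          refine mul_le_mul_of_nonneg_right ?_ (by positivity)
          nlinarith
      _ = _ := by
          rw [pow_succ]
          ring

/-! ## The gradient of a polynomial with a bounded tensor (for row R6) -/

lemma nw_dual (w : ι → ℝ) (y : ι × Bool → ℂ) : nw w (fun v => y (dual v)) = nw w y := by
  unfold nw
  congr 1
  rw [Fintype.sum_prod_type, Fintype.sum_prod_type]
  refine sum_congr rfl fun n _ => ?_
  simp only [Fintype.sum_bool, dual, Bool.not_true, Bool.not_false]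
  ring

lemma nw_neg (w : ι → ℝ) (y : ι × Bool → ℂ) : nw w (fun v => -y v) = nw w y := by
  unfold nw
  simp only [norm_neg]

lemma nw_congr (w : ι → ℝ) {y y' : ι × Bool → ℂ} (h : ∀ v, ‖y v‖ = ‖y' v‖) :
    nw w y = nw w y' := by
  unfold nw
  simp only [h]

/-- a component of the gradient -/
lemma eval_pderiv_le [DecidableEq ι] {mo : ι → Lat d} {n : ℕ} {A : ℝ} {P : Pl ι}
    (hP : Cls mo D0 (n + 1) A P) (y : ι × Bool → ℂ) (v : ι × Bool) :
    ‖eval y (pderiv v P)‖ ≤
      (n + 1) * A * msum (sm mo) (0 - sm mo v) (fun J : Fin n → ι × Bool => ∏ m, ‖y (J m)‖) := by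
  obtain ⟨a, ha, hm, rfl⟩ := hP
  have e : eval y (pderiv v (∑ I, C (a I) * mon I)) =
      ∑ l : Fin (n + 1), ∑ J : Fin n → ι × Bool,
        a (Fin.insertNth (α := fun _ => ι × Bool) l v J) * ∏ m, y (J m) := by
    rw [map_sum, map_sum]
    simp only [pderiv_C_mul, map_mul, eval_C, eval_pderiv_mon, mul_sum]
    rw [sum_comm]
    refine sum_congr rfl fun l _ => ?_
    rw [← (Fin.insertNthEquiv (fun _ => ι × Bool) l).sum_comp, Fintype.sum_prod_type,
      sum_eq_single v]
    · refine sum_congr rfl fun J _ => ?_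
      have hI : (Fin.insertNthEquiv (fun _ => ι × Bool) l) (v, J) =
        Fin.insertNth (α := fun _ => ι × Bool) l v J := rfl
      rw [hI, Fin.insertNth_apply_same, if_pos rfl]
      congr 1
      rw [← Finset.compl_singleton, ← Fin.image_succAbove_univ,
        prod_image (fun x _ z _ hxz => Fin.succAbove_right_injective hxz)]
      exact prod_congr rfl fun m _ => by rw [Fin.insertNth_apply_succAbove]
    · intro v' _ hv'
      refine sum_eq_zero fun J _ => ?_
      have hI : (Fin.insertNthEquiv (fun _ => ι × Bool) l) (v', J) =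
        Fin.insertNth (α := fun _ => ι × Bool) l v' J := rfl
      rw [hI, Fin.insertNth_apply_same, if_neg hv', mul_zero]
    · intro h
      exact absurd (mem_univ v) h
  rw [e]
  have h1 : ∀ l : Fin (n + 1), ‖∑ J : Fin n → ι × Bool,
      a (Fin.insertNth (α := fun _ => ι × Bool) l v J) * ∏ m, y (J m)‖ ≤
      A * msum (sm mo) (0 - sm mo v) (fun J : Fin n → ι × Bool => ∏ m, ‖y (J m)‖) := by
    intro l
    refine (norm_sum_le _ _).trans ?_
    unfold msum
    rw [mul_sum]
    refine sum_le_sum fun J _ => ?_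
    rw [norm_mul, norm_prod]
    have hmom : mom mo (Fin.insertNth (α := fun _ => ι × Bool) l v J) =
        sm mo v + ∑ m, sm mo (J m) := by
      unfold mom
      rw [Fin.sum_univ_succAbove _ l]
      simp
    split_ifs with h
    · refine mul_le_mul_of_nonneg_right ?_ (prod_nonneg fun _ _ => norm_nonneg _)
      refine (ha _).trans ?_
      simp [D0]
    · rw [hm _ ?_, norm_zero, zero_mul, mul_zero]
      rw [hmom]
      intro h'
      apply h
      rw [eq_sub_iff_add_eq, add_comm]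
      exact h'
  calc ‖∑ l : Fin (n + 1), ∑ J : Fin n → ι × Bool,
        a (Fin.insertNth (α := fun _ => ι × Bool) l v J) * ∏ m, y (J m)‖
      ≤ ∑ l : Fin (n + 1),
        A * msum (sm mo) (0 - sm mo v) (fun J : Fin n → ι × Bool => ∏ m, ‖y (J m)‖) :=
        (norm_sum_le _ _).trans (sum_le_sum fun l _ => h1 l)
    _ = _ := by
        rw [sum_const, card_univ, Fintype.card_fin, nsmul_eq_mul]
        push_cast
        ring

/-- **Gradient bound** for a polynomial of degree `n + 1` with a tensor bounded by `A`. -/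
theorem grad_le [DecidableEq ι] {mo : ι → Lat d} (hmo : Function.Injective mo) {W pw : ι → ℝ}
    (hW : ∀ n, 1 ≤ W n) (hpw : ∀ n, 1 ≤ pw n) {S : ℝ} (hS : 1 ≤ S)
    (hs : ∑ n, (pw n ^ 2)⁻¹ ≤ S ^ 2) {κ : ℝ} (hκ : 0 ≤ κ) {n : ℕ} (hn : 1 ≤ n)
    (hWm : ∀ (I : Fin (n + 1) → ι × Bool) (l : Fin (n + 1)), mom mo I = 0 →
      W (I l).1 ≤ ∏ i : Fin n, W (I (l.succAbove i)).1)
    (hpm : ∀ (I : Fin (n + 1) → ι × Bool) (l : Fin (n + 1)), mom mo I = 0 →
      ∃ i : Fin n, pw (I l).1 ≤ κ * pw (I (l.succAbove i)).1)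
    {A : ℝ} (hA : 0 ≤ A) {P : Pl ι} (hP : Cls mo D0 (n + 1) A P) (y : ι × Bool → ℂ) :
    nw (fun n => W n * pw n) (fun v => eval y (pderiv v P)) ≤
      (4 * (n + 1) * S) ^ (n + 2) * (κ * A) * nw (fun n => W n * pw n) y ^ n := by
  have hW0 : ∀ n, 0 ≤ W n := fun n => zero_le_one.trans (hW n)
  have hp0 : ∀ n, 0 ≤ pw n := fun n => zero_le_one.trans (hpw n)
  set N : ℝ := nw (fun n => W n * pw n) y with hN
  have hN0 : 0 ≤ N := nw_nonneg _ _
  set f : Fin n → Fin n → ι × Bool → ℝ := fun i m v =>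
    W v.1 * ‖y v‖ * (if m = i then pw v.1 else 1) with hf
  have f0 : ∀ i m v, 0 ≤ f i m v := by
    intro i m v
    simp only [hf]
    refine mul_nonneg (mul_nonneg (hW0 _) (norm_nonneg _)) ?_
    split_ifs
    · exact hp0 _
    · exact zero_le_one
  set B : Fin n → ι × Bool → ℝ := fun i v =>
    msum (sm mo) (0 - sm mo v) (fun J => ∏ m, f i m (J m)) with hB
  have B0 : ∀ i v, 0 ≤ B i v := fun i v => msum_nonneg _ _ fun J => prod_nonneg fun m _ => f0 _ _ _
  set X : ℝ := 2 * (2 * S) ^ (n - 1) * N ^ n with hX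
  have hX0 : 0 ≤ X := by positivity
  -- each convolution
  have hBX : ∀ i, ∑ v, B i v ^ 2 ≤ X ^ 2 := by
    intro i
    have h1 := msum_sq (mult_sm hmo) (0 : Lat d) i (f i) (f0 i)
    have h2 : √(∑ v, f i i v ^ 2) = N := by
      rw [hN]
      unfold nw
      congr 1
      refine sum_congr rfl fun v _ => ?_
      simp only [hf, if_true]
      ring
    have h3 : ∏ m ∈ univ.erase i, ∑ v, f i m v ≤ (2 * S * N) ^ (n - 1) := by
      have h4 : ∀ m ∈ univ.erase i, ∑ v, f i m v ≤ 2 * S * N := by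
        intro m hm
        have : ∀ v, f i m v = W v.1 * ‖y v‖ := by
          intro v
          simp only [hf]
          rw [if_neg (ne_of_mem_erase hm), mul_one]
        simp only [this]
        exact l1_le hW hpw (zero_le_one.trans hS) hs _
      refine (prod_le_prod (fun m _ => sum_nonneg fun v _ => f0 _ _ _) h4).trans (le_of_eq ?_)
      rw [prod_const, card_erase_of_mem (mem_univ i), card_univ, Fintype.card_fin]
    have h5 : √(∑ v, B i v ^ 2) ≤ X := by
      refine h1.trans ?_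
      rw [h2]
      calc ((2 : ℕ) : ℝ) * N * ∏ m ∈ univ.erase i, ∑ v, f i m v
          ≤ 2 * N * (2 * S * N) ^ (n - 1) := by
            rw [Nat.cast_ofNat]
            exact mul_le_mul_of_nonneg_left h3 (by positivity)
        _ = X := by
            rw [hX, mul_pow]
            obtain ⟨k, rfl⟩ : ∃ k, n = k + 1 := ⟨n - 1, by omega⟩
            rw [Nat.add_sub_cancel, pow_succ N k]
            ring
    have h6 : 0 ≤ ∑ v, B i v ^ 2 := sum_nonneg fun v _ => sq_nonneg _
    calc ∑ v, B i v ^ 2 = √(∑ v, B i v ^ 2) ^ 2 := (Real.sq_sqrt h6).symm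
      _ ≤ X ^ 2 := pow_le_pow_left₀ (Real.sqrt_nonneg _) h5 2
  -- the pointwise bound
  have hpt : ∀ v, W v.1 * pw v.1 * ‖eval y (pderiv v P)‖ ≤
      (n + 1) * A * (κ * ∑ i, B i v) := by
    intro v
    have h1 := eval_pderiv_le hP y v
    have h2 : W v.1 * pw v.1 *
        msum (sm mo) (0 - sm mo v) (fun J : Fin n → ι × Bool => ∏ m, ‖y (J m)‖) ≤
        κ * ∑ i, B i v := by
      simp only [hB]
      unfold msum
      rw [mul_sum, sum_comm, mul_sum]
      refine sum_le_sum fun J _ => ?_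
      by_cases h : ∑ m, sm mo (J m) = 0 - sm mo v
      · simp only [if_pos h]
        have hmom : mom mo (Fin.cons v J : Fin (n + 1) → ι × Bool) = 0 := by
          unfold mom
          rw [Fin.sum_univ_succ]
          simp only [Fin.cons_zero, Fin.cons_succ]
          rw [h]
          abel
        have h3 := hWm _ 0 hmom
        obtain ⟨i, h4⟩ := hpm _ 0 hmom
        simp only [Fin.cons_zero, Fin.zero_succAbove, Fin.cons_succ] at h3 h4
        have h5 : pw v.1 ≤ κ * ∑ i, pw (J i).1 := by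
          refine h4.trans (mul_le_mul_of_nonneg_left ?_ hκ)
          exact single_le_sum (f := fun i => pw (J i).1) (fun i _ => hp0 _) (mem_univ i)
        have h6 : ∀ i, ∏ m, f i m (J m) =
            (∏ m, W (J m).1) * (∏ m, ‖y (J m)‖) * pw (J i).1 := by
          intro i
          simp only [hf]
          rw [prod_mul_distrib, prod_mul_distrib, prod_ite_eq' univ i (fun m => pw (J m).1),
            if_pos (mem_univ i)]
        simp only [h6]
        rw [← mul_sum]
        have h7 : 0 ≤ ∏ m, ‖y (J m)‖ := prod_nonneg fun m _ => norm_nonneg _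
        have h8 : 0 ≤ ∏ m, W (J m).1 := prod_nonneg fun m _ => hW0 _
        calc W v.1 * pw v.1 * ∏ m, ‖y (J m)‖
            ≤ (∏ m, W (J m).1) * (κ * ∑ i, pw (J i).1) * ∏ m, ‖y (J m)‖ :=
              mul_le_mul_of_nonneg_right (mul_le_mul h3 h5 (hp0 _) h8) h7
          _ = _ := by ring
      · simp only [if_neg h, sum_const_zero, mul_zero, le_refl]
    have h9 : 0 ≤ W v.1 * pw v.1 := mul_nonneg (hW0 _) (hp0 _)
    calc W v.1 * pw v.1 * ‖eval y (pderiv v P)‖
        ≤ W v.1 * pw v.1 * ((n + 1) * A *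
          msum (sm mo) (0 - sm mo v) (fun J : Fin n → ι × Bool => ∏ m, ‖y (J m)‖)) :=
          mul_le_mul_of_nonneg_left h1 h9
      _ = (n + 1) * A * (W v.1 * pw v.1 *
          msum (sm mo) (0 - sm mo v) (fun J : Fin n → ι × Bool => ∏ m, ‖y (J m)‖)) := by ring
      _ ≤ (n + 1) * A * (κ * ∑ i, B i v) :=
          mul_le_mul_of_nonneg_left h2 (by positivity)
  -- the square norm
  have hsq : nw (fun n => W n * pw n) (fun v => eval y (pderiv v P)) ^ 2 ≤
      ((n + 1) * A * κ * n * X) ^ 2 := by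
    rw [nw_sq]
    calc ∑ v : ι × Bool, (W v.1 * pw v.1 * ‖eval y (pderiv v P)‖) ^ 2
        ≤ ∑ v : ι × Bool, ((n + 1) * A * κ) ^ 2 * (n * ∑ i, B i v ^ 2) := by
          refine sum_le_sum fun v _ => ?_
          have h10 : (∑ i, B i v) ^ 2 ≤ (univ : Finset (Fin n)).card * ∑ i, B i v ^ 2 :=
            sq_sum_le_card_mul_sum_sq
          rw [card_univ, Fintype.card_fin] at h10
          calc (W v.1 * pw v.1 * ‖eval y (pderiv v P)‖) ^ 2
              ≤ ((n + 1) * A * (κ * ∑ i, B i v)) ^ 2 := by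
                refine pow_le_pow_left₀ ?_ (hpt v) 2
                exact mul_nonneg (mul_nonneg (hW0 _) (hp0 _)) (norm_nonneg _)
            _ = ((n + 1) * A * κ) ^ 2 * (∑ i, B i v) ^ 2 := by ring
            _ ≤ _ := mul_le_mul_of_nonneg_left h10 (sq_nonneg _)
      _ = ((n + 1) * A * κ) ^ 2 * (n * ∑ i, ∑ v, B i v ^ 2) := by
          rw [← mul_sum, ← mul_sum, sum_comm]
      _ ≤ ((n + 1) * A * κ) ^ 2 * (n * ∑ _i : Fin n, X ^ 2) := by
          refine mul_le_mul_of_nonneg_left ?_ (sq_nonneg _)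
          exact mul_le_mul_of_nonneg_left (sum_le_sum fun i _ => hBX i) (Nat.cast_nonneg _)
      _ = ((n + 1) * A * κ * n * X) ^ 2 := by
          rw [sum_const, card_univ, Fintype.card_fin, nsmul_eq_mul]
          ring
  have h11 : nw (fun n => W n * pw n) (fun v => eval y (pderiv v P)) ≤
      (n + 1) * A * κ * n * X := abs_le_of_sq_le_sq' hsq (by positivity) |>.2
  refine h11.trans ?_
  have hn0 : (1 : ℝ) ≤ n := by exact_mod_cast hn
  have h12 : (n + 1 : ℝ) * n * 2 * (2 * S) ^ (n - 1) ≤ (4 * (n + 1) * S) ^ (n + 2) := by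
    have h13 : (4 * (n + 1) * S : ℝ) ^ (n + 2) =
        (4 * (n + 1) * S) ^ 3 * (4 * (n + 1) * S) ^ (n - 1) := by
      rw [← pow_add]
      congr 1
      omega
    have h14 : (2 * S) ^ (n - 1) ≤ (4 * (n + 1) * S : ℝ) ^ (n - 1) := by
      refine pow_le_pow_left₀ (by positivity) ?_ _
      nlinarith
    have h15 : (n + 1 : ℝ) * n * 2 ≤ (4 * (n + 1) * S) ^ 3 := by
      have h16 : (1 : ℝ) ≤ S ^ 3 := one_le_pow₀ hS
      have h17 : (n + 1 : ℝ) * n * 2 ≤ (4 * (n + 1)) ^ 3 := by
        nlinarith [mul_nonneg (zero_le_one.trans hn0) (zero_le_one.trans hn0),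
          pow_nonneg (zero_le_one.trans hn0) 3]
      calc (n + 1 : ℝ) * n * 2 ≤ (4 * (n + 1)) ^ 3 * 1 := by rw [mul_one]; exact h17
        _ ≤ (4 * (n + 1)) ^ 3 * S ^ 3 := mul_le_mul_of_nonneg_left h16 (by positivity)
        _ = _ := by ring
    rw [h13]
    exact mul_le_mul h15 h14 (by positivity) (by positivity)
  calc (n + 1) * A * κ * n * X
      = ((n + 1 : ℝ) * n * 2 * (2 * S) ^ (n - 1)) * ((κ * A) * N ^ n) := by
        rw [hX]
        ring
    _ ≤ (4 * (n + 1) * S) ^ (n + 2) * ((κ * A) * N ^ n) :=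
        mul_le_mul_of_nonneg_right h12 (by positivity)
    _ = _ := by ring

/-- **Row R5b.** The vector field of a polynomial with a bounded tensor. -/
theorem vfThm (d : ℕ) (j : ℕ) (κ S : ℝ) (hj : 1 ≤ j) (hκ : 1 ≤ κ) (hS : 1 ≤ S)
    (ι : Type) [Fintype ι] [DecidableEq ι] (mo : ι → Lat d) (W pw : ι → ℝ)
    (hmo : Function.Injective mo) (hW : ∀ n, 1 ≤ W n) (hpw : ∀ n, 1 ≤ pw n)
    (hWm : ∀ (I : Fin (j + 1) → ι × Bool) (l : Fin (j + 1)), mom mo I = 0 →
      W (I l).1 ≤ ∏ i : Fin j, W (I (l.succAbove i)).1)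
    (hpm : ∀ (I : Fin (j + 1) → ι × Bool) (l : Fin (j + 1)), mom mo I = 0 →
      ∃ i : Fin j, pw (I l).1 ≤ κ * pw (I (l.succAbove i)).1)
    (hs : ∑ n, (pw n ^ 2)⁻¹ ≤ S ^ 2) (F : ℝ) (P : Pl ι) (hF : 0 ≤ F)
    (hP : Cls mo D0 (j + 1) F P) (y : ι × Bool → ℂ) :
    nw (fun n => W n * pw n) (fun v => eval y (pderiv v P)) ≤
      (8 * (j + 1) * κ * S) ^ (j + 2) * F * nw (fun n => W n * pw n) y ^ j := by
  have hκ0 : 0 ≤ κ := zero_le_one.trans hκ
  have hS0 : 0 ≤ S := zero_le_one.trans hS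
  refine (grad_le hmo hW hpw hS hs hκ0 hj hWm hpm hF hP y).trans ?_
  refine mul_le_mul_of_nonneg_right ?_ (pow_nonneg (nw_nonneg _ _) _)
  rw [← mul_assoc]
  refine mul_le_mul_of_nonneg_right ?_ hF
  have h1 : κ ≤ (2 * κ) ^ (j + 2) := by
    calc κ ≤ κ ^ (j + 2) := le_self_pow₀ hκ (by omega)
      _ ≤ (2 * κ) ^ (j + 2) := pow_le_pow_left₀ hκ0 (by linarith) _
  calc (4 * (j + 1) * S) ^ (j + 2) * κ ≤ (4 * (j + 1) * S) ^ (j + 2) * (2 * κ) ^ (j + 2) :=
        mul_le_mul_of_nonneg_left h1 (by positivity)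
    _ = _ := by rw [← mul_pow]; ring

end Vale.Agent.P139.R2.H923
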