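import Mathlib.Analysis.Calculus.MeanValue
import Mathlib.Topology.Order.Compact

/-! P139, row R6 (helper923): the bootstrap with a modified energy. -/

set_option autoImplicit false

namespace Vale.Agent.P139.R2.H923

open Set Filter Topology

/-- Bootstrap: `F` is a modified energy with `|F - u²| ≤ A` and `|F'| ≤ B` as long as
`u ≤ 2η`. -/
theorem bootstrap {T η A B : ℝ} (hη : 0 ≤ η) (hB : 0 ≤ B) {u F F' : ℝ → ℝ}
    (hu : ContinuousOn u (Icc 0 T)) (hu0 : ∀ t ∈ Icc 0 T, 0 ≤ u t)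
    (hF : ∀ t ∈ Icc 0 T, HasDerivWithinAt F (F' t) (Icc 0 T) t) (h0 : u 0 ≤ η)
    (hb : ∀ t ∈ Icc 0 T, u t ≤ 2 * η → |F t - u t ^ 2| ≤ A)
    (hd : ∀ t ∈ Icc 0 T, u t ≤ 2 * η → |F' t| ≤ B)
    (hAB : η ^ 2 + 2 * A + B * T < 4 * η ^ 2) :
    ∀ t ∈ Icc 0 T, u t < 2 * η := by
  by_contra hcon
  push Not at hcon
  obtain ⟨t1, ht1, hut1⟩ := hcon
  set S : Set ℝ := Icc 0 T ∩ u ⁻¹' Ici (2 * η) with hS
  have hSc : IsCompact S := by
    refine isCompact_Icc.of_isClosed_subset ?_ inter_subset_left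
    exact hu.preimage_isClosed_of_isClosed isClosed_Icc isClosed_Ici
  obtain ⟨s, hs, hmin⟩ := hSc.exists_isLeast ⟨t1, ht1, hut1⟩
  have hs0 : 0 ≤ s := hs.1.1
  have hsT : s ≤ T := hs.1.2
  have hT : 0 ≤ T := hs0.trans hsT
  have hlt : ∀ t ∈ Ico 0 s, u t < 2 * η := by
    intro t ht
    by_contra hc
    push Not at hc
    exact absurd (hmin ⟨⟨ht.1, ht.2.le.trans hsT⟩, hc⟩) (not_le.2 ht.2)
  have h2pos : 0 < η := by
    rcases hη.eq_or_lt with h | h
    · exfalso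
      rw [← h] at hAB hut1 h0
      have h3 := hb 0 ⟨le_rfl, hT⟩ (by rw [← h]; linarith)
      have := abs_nonneg (F 0 - u 0 ^ 2)
      have h4 : 0 ≤ B * T := mul_nonneg hB hT
      nlinarith
    · exact h
  have hsle : u s ≤ 2 * η := by
    rcases hs0.eq_or_lt with h | h
    · rw [← h]
      linarith
    · have hcs : ContinuousOn u (Icc 0 s) := hu.mono (Icc_subset_Icc le_rfl hsT)
      have hmem : s ∈ closure (Ico 0 s) := by
        rw [closure_Ico h.ne]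
        exact ⟨hs0, le_rfl⟩
      have h5 : ContinuousWithinAt u (Ico 0 s) s :=
        (hcs s ⟨hs0, le_rfl⟩).mono Ico_subset_Icc_self
      have h6 : (𝓝[Ico 0 s] s).NeBot := mem_closure_iff_nhdsWithin_neBot.1 hmem
      exact le_of_tendsto h5 (eventually_nhdsWithin_of_forall fun t ht => (hlt t ht).le)
  have hle : ∀ t ∈ Icc 0 s, u t ≤ 2 * η := by
    intro t ht
    rcases ht.2.eq_or_lt with h | h
    · rw [h]
      exact hsle
    · exact (hlt t ⟨ht.1, h⟩).le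
  have hmv : |F s - F 0| ≤ B * s := by
    have h7 := (convex_Icc (0 : ℝ) s).norm_image_sub_le_of_norm_hasDerivWithin_le
      (f := F) (f' := F') (C := B) (fun t ht => (hF t ⟨ht.1, ht.2.trans hsT⟩).mono
        (Icc_subset_Icc le_rfl hsT)) (fun t ht => by
          rw [Real.norm_eq_abs]
          exact hd t ⟨ht.1, ht.2.trans hsT⟩ (hle t ht)) ⟨le_rfl, hs0⟩ ⟨hs0, le_rfl⟩
    rw [Real.norm_eq_abs, Real.norm_eq_abs, sub_zero, abs_of_nonneg hs0] at h7
    exact h7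
  have h8 := hb s ⟨hs0, hsT⟩ hsle
  have h9 := hb 0 ⟨le_rfl, hT⟩ (by linarith)
  have h10 : u 0 ^ 2 ≤ η ^ 2 := pow_le_pow_left₀ (hu0 0 ⟨le_rfl, hT⟩) h0 2
  have h11 : B * s ≤ B * T := mul_le_mul_of_nonneg_left hsT hB
  have h12 : u s ^ 2 < 4 * η ^ 2 := by
    have a1 := abs_le.1 h8
    have a2 := abs_le.1 h9
    have a3 := abs_le.1 hmv
    linarith
  have h13 : 2 * η ≤ u s := hs.2
  nlinarith

end Vale.Agent.P139.R2.H923
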