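import Vale.Agent.P139.R2.H182.FinA
import Vale.Agent.P139.R2.H556.Defs2

/-! P139, stage 2, row S4 (helper923): the deterministic core with explicit dependence on the mean
(adapted from `core` of helper182). -/

set_option autoImplicit false

open MvPolynomial Finset
open scoped ComplexConjugate ENNReal

namespace Vale.Agent.P139.BN

open Vale.Agent.P139.A Vale.Agent.P139.A.WA

variable {d k : ℕ}

/-- **The deterministic core**, constants explicit in the mean `c`. -/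
theorem coreQ (hDyn : DynThm d) (hHam : HamQ d) {m : ℕ} (hm : 1 ≤ m) (hLim : LimQ d k m) :
    ∃ (a aH : ℕ) (A₁ : ℝ), 1 ≤ A₁ ∧
    ∀ (c : ℝ), 0 < c → ∀ (N J : ℕ), J = 3 * N + 2 * m + 6 → ∀ (A κ γ S θ : ℝ) (R : ℕ), 1 ≤ κ →
    0 < γ → γ ≤ 1 → 1 ≤ S →
    ∀ (W : Lat d → ℝ), (∀ n, 1 ≤ W n) → (∀ n, W (-n) = W n) → (∀ a b, W (a + b) ≤ W a * W b) →
    ∀ (w₀ : WA d k), coef w₀ 0 = 0 → ‖w₀‖ ≤ c / 32 →
    A = (A₁ * (Real.sqrt (c ^ 2 + H836.mass w₀) +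
      (Real.sqrt (c ^ 2 + H836.mass w₀))⁻¹)) ^ (aH * (N + 1)) → 1 ≤ A →
    (∀ L : ℕ, ∃ lev : {n // n ∈ box d L} → ℕ, Modes {n // n ∈ box d L} d J κ γ R θ S
      (fun n => n.1) lev (fun n => Om (m * (c ^ 2 + H836.mass w₀) ^ m) n.1) (fun n => W n.1)
      (fun n => (1 + sqNorm n.1) ^ (k + d + 1))) →
    ∀ η : ℝ, 0 < η →
    (∀ L : ℕ, nL (box d L) (fun n => W n * (1 + sqNorm n) ^ (k + d + 1)) (coef w₀) ≤ η) →
    Cst a J A κ S γ * (A * η) ≤ 1 → θ ≤ (A * η) ^ N → SS d k * (A * (2 * (A * η))) ≤ c / 32 →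
    ∀ T : ℝ, 0 ≤ T → T * (Cst a J A κ S γ * (A * η) ^ N) ≤ 1 →
    ∃ u : ℝ → WA d k, u 0 = cst c + w₀ ∧
      IsSolution d (2 * m + 1) k T (fun t => coef (u t)) ∧
      ∀ t ∈ Set.Icc 0 T, ∃ ζ : ℂ, ‖ζ‖ = 1 ∧ ‖u t - ζ • cst c‖ ≤ 2 * (c / 16) := by
  obtain ⟨a, hDyn⟩ := hDyn
  obtain ⟨aH, A₁, hA₁, hHam⟩ := hHam m (k + d + 1) hm (by omega) (by omega)
  refine ⟨a, aH, A₁, hA₁, ?_⟩
  intro c hc N J hJ A κ γ S θ R hκ hγ hγ1 hS W hW1 hWn hWs w₀ hw0 hwn hA hA1 hM η hη hdat hc1 hc2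
    hc3 T hT hc4
  have hA0 : 0 < A := by linarith
  have hmass0 := H836.mass_nonneg w₀
  refine hLim c (c / 16) hc rfl w₀ hw0 (by linarith) T (c / 32) hT
    fun L T' hT' w hw hinit hwR => ?_
  -- the Hamiltonian structure
  obtain ⟨H, hH0, hHc, hHz, hHr, hHd⟩ := hHam N (2 * N + 2 * m + 2) A rfl k c (H836.mass w₀) hc
    hmass0 hA (box d L) (fun n hn => neg_mem_box hn) (zero_notMem_box d L) W
    (fun n => (1 + sqNorm n) ^ (k + d + 1)) hW1 hWn hWs (fun n => rfl)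
  obtain ⟨z, ρ, hode, hrem, heq⟩ := hHd T' w hw
  obtain ⟨lev, hmod⟩ := hM L
  have hT0' : (0 : ℝ) ∈ Set.Icc 0 T' := ⟨le_rfl, hT'.1⟩
  have hz0 : nw (fun n : {n // n ∈ box d L} => W n.1 * (1 + sqNorm n.1) ^ (k + d + 1))
      (pt (z 0)) ≤ A * η := by
    refine ((heq 0 hT0').1).trans (mul_le_mul_of_nonneg_left ?_ hA0.le)
    have e1 : nL (box d L) (fun n => W n * (1 + sqNorm n) ^ (k + d + 1)) (coef (w 0)) =
        nL (box d L) (fun n => W n * (1 + sqNorm n) ^ (k + d + 1)) (coef w₀) := by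
      unfold nL
      congr 1
      exact Finset.sum_congr rfl fun n hn => by rw [hinit n hn]
    rw [e1]
    exact hdat L
  have hT'c : T' * (Cst a J A κ S γ * (A * η) ^ N) ≤ 1 := by
    refine le_trans (mul_le_mul_of_nonneg_right hT'.2 ?_) hc4
    have : 0 ≤ Cst a J A κ S γ := by unfold Cst; positivity
    positivity
  have hdyn := hDyn N J (2 * N + 2 * m + 2) (by omega) A κ γ S hA1 hκ hγ hγ1 hS
    {n // n ∈ box d L} R θ (fun n => n.1) lev _ _ _ hmod H hH0 hHc hHz hHr (A * η) T'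
    (by positivity) hT'.1 hc1 hc2 hT'c z ρ hode hrem hz0
  intro t ht
  have hsum : ∑ n ∈ box d L, Vale.Agent.P139.A.W (k + 1) n * ‖coef (w t) n‖ ≤ c / 32 := by
    refine (sum_le_nL (box d L) W hW1 (coef (w t)) k).trans ?_
    have h1 := (heq t ht).2
    have h2 := hdyn t ht
    have h3 : nL (box d L) (fun n => W n * (1 + sqNorm n) ^ (k + d + 1)) (coef (w t)) ≤
        A * (2 * (A * η)) := h1.trans (mul_le_mul_of_nonneg_left h2 hA0.le)
    exact (mul_le_mul_of_nonneg_left h3 (SS_nonneg d k)).trans hc3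
  exact ⟨((norm_le_sum (hw.supp t ht)).trans hsum).trans (by linarith), hsum⟩

end Vale.Agent.P139.BN
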