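import Mathlib.Analysis.Calculus.Deriv.Mul
import Mathlib.Analysis.Calculus.Deriv.Add
import Mathlib.Analysis.Calculus.Deriv.Pow
import Vale.Agent.P139.R2.H923.Ev

/-! P139, helpers for row R6 (helper923): brackets at a point and the chain rule. -/

set_option autoImplicit false

namespace Vale.Agent.P139.R2.H923

open MvPolynomial Finset
open Vale.Agent.P139.BN Vale.Agent.P139.A Vale.Agent.P139.A.WA

variable {ι : Type} [Fintype ι] [DecidableEq ι] {d : ℕ}

/-- the Hamiltonian vector field of `Q` at `y` (as a direction) -/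
noncomputable def hv (Q : Pl ι) (y : ι × Bool → ℂ) (v : ι × Bool) : ℂ :=
  if v.2 then eval y (pderiv (dual v) Q) else -eval y (pderiv (dual v) Q)

omit [Fintype ι] [DecidableEq ι] in
lemma norm_hv (Q : Pl ι) (y : ι × Bool → ℂ) (v : ι × Bool) :
    ‖hv Q y v‖ = ‖eval y (pderiv (dual v) Q)‖ := by
  unfold hv
  split_ifs
  · rfl
  · rw [norm_neg]

omit [DecidableEq ι] in
lemma nw_hv (w : ι → ℝ) (Q : Pl ι) (y : ι × Bool → ℂ) :
    nw w (hv Q y) = nw w (fun v => eval y (pderiv v Q)) := by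
  rw [nw_congr w (norm_hv Q y)]
  exact nw_dual w (fun v => eval y (pderiv v Q))

omit [DecidableEq ι] in
lemma eval_br (P Q : Pl ι) (y : ι × Bool → ℂ) :
    eval y (br P Q) = ∑ v, eval y (pderiv v P) * hv Q y v := by
  unfold br
  rw [map_sum, Fintype.sum_prod_type]
  refine sum_congr rfl fun n _ => ?_
  rw [Fintype.sum_bool]
  simp only [map_sub, map_mul, hv, dual, Bool.not_true, Bool.not_false, if_true,
    Bool.false_eq_true, if_false]
  ring

/-- chain rule for a polynomial along a curve -/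
lemma hasDeriv_eval (P : Pl ι) {y : ℝ → ι × Bool → ℂ} {y' : ι × Bool → ℂ} {s : Set ℝ} {t : ℝ}
    (h : ∀ v, HasDerivWithinAt (fun t => y t v) (y' v) s t) :
    HasDerivWithinAt (fun t => eval (y t) P) (∑ v, eval (y t) (pderiv v P) * y' v) s t := by
  induction P using MvPolynomial.induction_on with
  | C a =>
    simp only [eval_C, pderiv_C, map_zero, zero_mul, sum_const_zero]
    exact hasDerivWithinAt_const _ _ _
  | add p q hp hq =>
    simp only [map_add, add_mul, sum_add_distrib]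
    exact hp.add hq
  | mul_X p i hp =>
    have e : ∑ v, eval (y t) (pderiv v (p * X i)) * y' v =
        (∑ v, eval (y t) (pderiv v p) * y' v) * y t i + eval (y t) p * y' i := by
      have h1 : ∀ v, eval (y t) (pderiv v (p * X i)) * y' v =
          eval (y t) (pderiv v p) * y' v * y t i +
            (if i = v then eval (y t) p * y' v else 0) := by
        intro v
        rw [Derivation.leibniz, pderiv_X, smul_eq_mul, smul_eq_mul, map_add, map_mul, map_mul,
          eval_X]
        split_ifs with h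
        · subst h
          simp only [Pi.single_eq_same, map_one]
          ring
        · rw [Pi.single_eq_of_ne (fun h' => h h'), map_zero]
          ring
      simp only [h1]
      rw [sum_add_distrib, ← sum_mul, sum_ite_eq, if_pos (mem_univ i)]
    rw [e]
    simp only [map_mul, eval_X]
    exact hp.mul (h i)

/-- **Bracket bound** at a point: a class `DW` polynomial against a class `D0` polynomial. -/
theorem br_le {mo : ι → Lat d} (hmo : Function.Injective mo) {W pw : ι → ℝ}
    (hW : ∀ n, 1 ≤ W n) (hpw : ∀ n, 1 ≤ pw n) {S : ℝ} (hS : 1 ≤ S)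
    (hs : ∑ n, (pw n ^ 2)⁻¹ ≤ S ^ 2) {κ : ℝ} (hκ : 0 ≤ κ) {j n : ℕ} (hj : 2 ≤ j) (hn : 1 ≤ n)
    (hWm : ∀ (I : Fin (n + 1) → ι × Bool) (l : Fin (n + 1)), mom mo I = 0 →
      W (I l).1 ≤ ∏ i : Fin n, W (I (l.succAbove i)).1)
    (hpm : ∀ (I : Fin (n + 1) → ι × Bool) (l : Fin (n + 1)), mom mo I = 0 →
      ∃ i : Fin n, pw (I l).1 ≤ κ * pw (I (l.succAbove i)).1)
    {A F : ℝ} (hA : 0 ≤ A) (hF : 0 ≤ F) {P Q : Pl ι} (hP : Cls mo (DW W pw) j F P)
    (hQ : Cls mo D0 (n + 1) A Q) (y : ι × Bool → ℂ) :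
    ‖eval y (br P Q)‖ ≤ (4 * j * S) ^ (j + 1) * F * ((4 * (n + 1) * S) ^ (n + 2) * (κ * A)) *
      nw (fun n => W n * pw n) y ^ (j - 1 + n) := by
  rw [eval_br]
  have h1 := (evThm d j S hj hS ι mo W pw hmo hW hpw hs F P hF hP).2 y (hv Q y)
  have h2 := grad_le hmo hW hpw hS hs hκ hn hWm hpm hA hQ y
  have hS0 : 0 ≤ S := zero_le_one.trans hS
  have hN0 : 0 ≤ nw (fun n => W n * pw n) y := nw_nonneg _ _
  calc ‖∑ v, eval y (pderiv v P) * hv Q y v‖
      ≤ (4 * j * S) ^ (j + 1) * F * nw (fun n => W n * pw n) y ^ (j - 1) *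
        nw (fun n => W n * pw n) (hv Q y) := h1
    _ ≤ (4 * j * S) ^ (j + 1) * F * nw (fun n => W n * pw n) y ^ (j - 1) *
        ((4 * (n + 1) * S) ^ (n + 2) * (κ * A) * nw (fun n => W n * pw n) y ^ n) := by
        rw [nw_hv]
        exact mul_le_mul_of_nonneg_left h2 (by positivity)
    _ = _ := by rw [pow_add]; ring

end Vale.Agent.P139.R2.H923
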